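import Vale.Agent.P181.S.Final
import Vale.Agent.P181.R.Top

open Vale.Agent.P181

/-- The sixth case of Foulkes' conjecture (`a = 6`, every `b ≥ 6`, every finite-dimensional complex
`V`), together with the dimension-free quadratic stabilization of the Foulkes-Howe map. -/
theorem Vale.Agent.Results.P181.A_full.result
    (V : Type*) [AddCommGroup V] [Module ℂ V] [FiniteDimensional ℂ V] :
    (∀ b : ℕ, 6 ≤ b →
      ∃ Ψ : SymmetricPower ℂ (Fin 6) (SymmetricPower ℂ (Fin b) V) →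
          SymmetricPower ℂ (Fin b) (SymmetricPower ℂ (Fin 6) V),
        IsLinearMap ℂ Ψ ∧ IsGLEquivariant ℂ 6 b V Ψ ∧ Function.Injective Ψ) ∧
    (∀ a b : ℕ, (a - 1) ^ 2 ≤ b →
      (∃ Ψ : SymmetricPower ℂ (Fin a) (SymmetricPower ℂ (Fin b) V) →
          SymmetricPower ℂ (Fin b) (SymmetricPower ℂ (Fin a) V),
        IsLinearMap ℂ Ψ ∧ IsFoulkesHowe ℂ a b V Ψ ∧ IsGLEquivariant ℂ a b V Ψ ∧
          Function.Injective Ψ) ∧
      (∃ Φ : SymmetricPower ℂ (Fin b) (SymmetricPower ℂ (Fin a) V) →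
          SymmetricPower ℂ (Fin a) (SymmetricPower ℂ (Fin b) V),
        IsLinearMap ℂ Φ ∧ IsFoulkesHowe ℂ b a V Φ ∧ IsGLEquivariant ℂ b a V Φ ∧
          Function.Surjective Φ)) :=
  ⟨fun b hb => six_of_check (finiteCheck repFacts) b hb V,
    fun a b hb => square_stabilization a b hb⟩
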