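import Vale.Agent.P181.R.Imp

open Vale.Agent.P181

/-- Dimension-free quadratic stabilization: for `b ≥ (a - 1) ^ 2` and every finite-dimensional
complex `V`, the Foulkes-Howe map `Ψ_{a,b,V}` is an equivariant injection and `Ψ_{b,a,V}` is an
equivariant surjection. -/
theorem Vale.Agent.Results.P181.B0_square.result
    (a b : ℕ) (hb : (a - 1) ^ 2 ≤ b)
    (V : Type*) [AddCommGroup V] [Module ℂ V] [FiniteDimensional ℂ V] :
    (∃ Ψ : SymmetricPower ℂ (Fin a) (SymmetricPower ℂ (Fin b) V) →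
        SymmetricPower ℂ (Fin b) (SymmetricPower ℂ (Fin a) V),
      IsLinearMap ℂ Ψ ∧ IsFoulkesHowe ℂ a b V Ψ ∧ IsGLEquivariant ℂ a b V Ψ ∧
        Function.Injective Ψ) ∧
    (∃ Φ : SymmetricPower ℂ (Fin b) (SymmetricPower ℂ (Fin a) V) →
        SymmetricPower ℂ (Fin a) (SymmetricPower ℂ (Fin b) V),
      IsLinearMap ℂ Φ ∧ IsFoulkesHowe ℂ b a V Φ ∧ IsGLEquivariant ℂ b a V Φ ∧
        Function.Surjective Φ) :=
  square_stabilization a b hb
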